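import Mathlib
import Vale.Agent.Lib.P201.Support

namespace Vale.Agent.Results.P201.IndexTwoThreeTerms

/-- Let `G` be a torsion-free group with a subgroup `L` of index two such that `K[L]` has no zero
divisors. Then a nonzero element of `K[G]` with at most three terms in its support is neither a
left nor a right zero divisor. -/
theorem result {K G : Type*} [Field K] [Group G] (hG : ∀ g : G, g ≠ 1 → orderOf g = 0)
    (L : Subgroup G) (hL : L.index = 2) [NoZeroDivisors (MonoidAlgebra K L)]
    (α β : MonoidAlgebra K G) (hα : α ≠ 0) (hcard : α.coeff.support.card ≤ 3)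
    (h : α * β = 0 ∨ β * α = 0) : β = 0 :=
  Vale.Agent.Lib.P201.index_two hG L hL α hα hcard β h

end Vale.Agent.Results.P201.IndexTwoThreeTerms
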