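import Mathlib
import Vale.Agent.Lib.P201.Final

namespace Vale.Agent.Results.P201.NormalThreeTerms

open MonoidAlgebra

/-- Let `x, y` be elements of a group `G`, and let `N` be a normal subgroup of finite index of
`⟨x, y⟩` admitting a nontrivial homomorphism to the integers. If one of `x`, `y`, `x⁻¹ y` lies in
`N` and has infinite order, then for all nonzero `a, b, c` the element `a + b x + c y` is neither a
left nor a right zero divisor in `K[G]`. -/
theorem result {K G : Type*} [Field K] [Group G] (x y : G) (a b c : K)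
    (ha : a ≠ 0) (hb : b ≠ 0) (hc : c ≠ 0)
    (N : Subgroup G) (hNH : N ≤ Subgroup.closure {x, y})
    (hnorm : (N.subgroupOf (Subgroup.closure {x, y})).Normal)
    (hfin : (N.subgroupOf (Subgroup.closure {x, y})).FiniteIndex)
    (φ : N →* Multiplicative ℤ) (hφ : φ ≠ 1)
    (he : (x ∈ N ∧ orderOf x = 0) ∨ (y ∈ N ∧ orderOf y = 0) ∨
      (x⁻¹ * y ∈ N ∧ orderOf (x⁻¹ * y) = 0))
    (β : MonoidAlgebra K G)
    (h : (single 1 a + single x b + single y c) * β = 0 ∨
      β * (single 1 a + single x b + single y c) = 0) : β = 0 :=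
  Vale.Agent.Lib.P201.normal_indicable x y a b c ha hb hc N hNH hnorm hfin φ hφ he β h

end Vale.Agent.Results.P201.NormalThreeTerms
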