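import Mathlib
import Vale.Agent.Lib.P201.Outlier

namespace Vale.Agent.Results.P201.OneOutlier

open MonoidAlgebra

/-- Let `L` be a normal subgroup of finite index of `G` such that `K[L]` has no zero divisors, let
`a` be a non-unit of `K[L]`, `x` an element of `G` and `l` a nonzero scalar. Then `a + l x` (with
`a` viewed in `K[G]`) is neither a left nor a right zero divisor in `K[G]`. -/
theorem result {K G : Type*} [Field K] [Group G] (L : Subgroup G) [L.Normal] [L.FiniteIndex]
    [NoZeroDivisors (MonoidAlgebra K L)] (a : MonoidAlgebra K L) (ha : ¬ IsUnit a)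
    (x : G) (l : K) (hl : l ≠ 0) (β : MonoidAlgebra K G)
    (h : (mapDomainRingHom K L.subtype a + single x l) * β = 0 ∨
      β * (mapDomainRingHom K L.subtype a + single x l) = 0) : β = 0 :=
  Vale.Agent.Lib.P201.outlier_both x l hl L a ha β h

end Vale.Agent.Results.P201.OneOutlier
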