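import Mathlib
import Vale.Agent.Lib.P201.SmallHigman

namespace Vale.Agent.Results.P201.SmallSupportHigman

/-- Let `k` be a natural number and `G` a group in which every nontrivial subgroup generated by at
most `k` elements has a nontrivial homomorphism to the integers. Then a nonzero element of `K[G]`
with at most `k + 1` terms is neither a left nor a right zero divisor. -/
theorem result {K G : Type*} [Field K] [Group G] (k : ℕ)
    (hG : ∀ S : Finset G, S.card ≤ k → (∃ s ∈ S, s ≠ 1) →
      ∃ φ : Subgroup.closure (S : Set G) →* Multiplicative ℤ, φ ≠ 1)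
    (α β : MonoidAlgebra K G) (hα : α ≠ 0) (hcard : α.coeff.support.card ≤ k + 1)
    (h : α * β = 0 ∨ β * α = 0) : β = 0 :=
  Vale.Agent.Lib.P201.higman_both k hG α hα hcard β h

end Vale.Agent.Results.P201.SmallSupportHigman
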