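import Mathlib
import Vale.Agent.Results.P201.IndexTwoThreeTerms
import Vale.Agent.Results.P201.NormalThreeTerms
import Vale.Agent.Results.P201.OneOutlier
import Vale.Agent.Results.P201.SmallSupportHigman
import Vale.Agent.Lib.P201.FiniteField

namespace Vale.Agent.Results.P201.A0Conj

open MonoidAlgebra

universe u v

/-- Part 1: `a + b x + c y` is neither a left nor a right zero divisor when `⟨x, y⟩` has a normal
subgroup `N` of finite index with a nontrivial homomorphism to the integers and one of `x`, `y`,
`x⁻¹ y` lies in `N` with infinite order. -/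
def Part1 : Prop :=
  ∀ {K : Type u} {G : Type v} [Field K] [Group G] (x y : G) (a b c : K)
    (_ : a ≠ 0) (_ : b ≠ 0) (_ : c ≠ 0)
    (N : Subgroup G) (_ : N ≤ Subgroup.closure {x, y})
    (_ : (N.subgroupOf (Subgroup.closure {x, y})).Normal)
    (_ : (N.subgroupOf (Subgroup.closure {x, y})).FiniteIndex)
    (φ : N →* Multiplicative ℤ) (_ : φ ≠ 1)
    (_ : (x ∈ N ∧ orderOf x = 0) ∨ (y ∈ N ∧ orderOf y = 0) ∨
      (x⁻¹ * y ∈ N ∧ orderOf (x⁻¹ * y) = 0))
    (β : MonoidAlgebra K G)
    (_ : (single 1 a + single x b + single y c) * β = 0 ∨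
      β * (single 1 a + single x b + single y c) = 0), β = 0

/-- Part 2: in a torsion-free `G` with a subgroup `L` of index two such that `K[L]` has no zero
divisors, elements with at most three terms are neither left nor right zero divisors. -/
def Part2 : Prop :=
  ∀ {K : Type u} {G : Type v} [Field K] [Group G] (_ : ∀ g : G, g ≠ 1 → orderOf g = 0)
    (L : Subgroup G) (_ : L.index = 2) [NoZeroDivisors (MonoidAlgebra K L)]
    (α β : MonoidAlgebra K G) (_ : α ≠ 0) (_ : α.coeff.support.card ≤ 3)
    (_ : α * β = 0 ∨ β * α = 0), β = 0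

/-- Part 3: `a + l x`, with `a` a non-unit of `K[L]`, `L` normal of finite index and `K[L]` without
zero divisors, is neither a left nor a right zero divisor. -/
def Part3 : Prop :=
  ∀ {K : Type u} {G : Type v} [Field K] [Group G] (L : Subgroup G) [L.Normal] [L.FiniteIndex]
    [NoZeroDivisors (MonoidAlgebra K L)] (a : MonoidAlgebra K L) (_ : ¬ IsUnit a)
    (x : G) (l : K) (_ : l ≠ 0) (β : MonoidAlgebra K G)
    (_ : (mapDomainRingHom K L.subtype a + single x l) * β = 0 ∨
      β * (mapDomainRingHom K L.subtype a + single x l) = 0), β = 0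

/-- Part 4: elements with at most `k + 1` terms are neither left nor right zero divisors when every
nontrivial subgroup generated by at most `k` elements has a nontrivial homomorphism to the
integers. -/
def Part4 : Prop :=
  ∀ {K : Type u} {G : Type v} [Field K] [Group G] (k : ℕ)
    (_ : ∀ S : Finset G, S.card ≤ k → (∃ s ∈ S, s ≠ 1) →
      ∃ φ : Subgroup.closure (S : Set G) →* Multiplicative ℤ, φ ≠ 1)
    (α β : MonoidAlgebra K G) (_ : α ≠ 0) (_ : α.coeff.support.card ≤ k + 1)
    (_ : α * β = 0 ∨ β * α = 0), β = 0

/-- Part 5: for a fixed `G`, no zero divisors over all finite fields implies no zero divisors over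
all fields of the same universe. -/
def Part5 : Prop :=
  ∀ {G : Type v} [Group G]
    (_ : ∀ (F : Type u) [Field F] [Finite F], NoZeroDivisors (MonoidAlgebra F G))
    (K : Type u) [Field K], NoZeroDivisors (MonoidAlgebra K G)

/-- The five complementary statements on zero divisors in group algebras together. -/
theorem result : Part1.{u, v} ∧ Part2.{u, v} ∧ Part3.{u, v} ∧ Part4.{u, v} ∧ Part5.{u, v} :=
  ⟨@NormalThreeTerms.result, @IndexTwoThreeTerms.result, @OneOutlier.result,
    @SmallSupportHigman.result, @Vale.Agent.Lib.P201.reduce_to_finite⟩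

end Vale.Agent.Results.P201.A0Conj
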